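import Mathlib
import Vale.Agent.Lib.P034.helper6.Subgraph

/-!
# P034: fractional covers of subgraph-containment families (bounded maximum degree)

Let `H` be a graph with at most `n` vertices and maximum degree at most `D`. The ground set is
the set of unordered pairs of elements of `[n]`, and the family consists of all sets `E` of pairs
that contain the edge image of some injection of the vertices of `H` into `[n]` (the graphs on
`[n]` containing a copy of `H`). If this family has a fractional cover of cost at most `1/2` at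
`p`, then it is `(p / (19440 * D))`-small.
-/

namespace Vale.Agent.Results.P034.B_SubgraphBoundedDegree

theorem result (n : ℕ) (hn : 2 ≤ n) {W : Type*} [Fintype W] (H : SimpleGraph W)
    [DecidableRel H.Adj] (hW : Fintype.card W ≤ n) (D : ℕ) (hD1 : 1 ≤ D)
    (hD : ∀ x, H.degree x ≤ D)
    (g : Finset (Sym2 (Fin n)) → ℝ) (p : ℝ) (hp0 : 0 ≤ p) (hp1 : p ≤ 1)
    (hg : ∀ S, 0 ≤ g S)
    (hcov : ∀ E : Finset (Sym2 (Fin n)),
      (∃ φ : W ↪ Fin n, ∀ e ∈ H.edgeSet, Sym2.map φ e ∈ E) → 1 ≤ ∑ S ∈ E.powerset, g S)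
    (hcost : ∑ S : Finset (Sym2 (Fin n)), g S * p ^ S.card ≤ 1 / 2) :
    ∃ G : Finset (Finset (Sym2 (Fin n))),
      (∀ E : Finset (Sym2 (Fin n)),
        (∃ φ : W ↪ Fin n, ∀ e ∈ H.edgeSet, Sym2.map φ e ∈ E) → ∃ S ∈ G, S ⊆ E) ∧
      ∑ S ∈ G, (p / (19440 * (D : ℝ))) ^ S.card ≤ 1 / 2 :=
  Vale.Agent.Lib.P034.helper6.talagrand_subgraph_deg n hn H hW D hD1 hD g p hp0 hp1 hg hcov hcost

end Vale.Agent.Results.P034.B_SubgraphBoundedDegree
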