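import Mathlib
import Vale.Agent.Lib.P034.helper6.Mat.Inst

/-!
# P034: fractional covers of the spanning sets of a matroid

Let `M` be a matroid whose ground set is a finite type `α`, and let the family consist of the
spanning sets of `M` (an increasing family of subsets of `α`). If this family has a fractional
cover of cost at most `1/2` at `p`, then it is `(p / 6)`-small.

Proof idea: take the point `x` of least square norm in the base polytope of `M`; with `u` its
largest coordinate and `U` the set where it is attained, `k = u * |U|` is a positive integer and
every spanning set meets `U` in at least `k` elements, so the `k`-subsets of `U` form a cover, of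
cost at most `2 ^ (-k)` at `u / 6`. On the other hand `x` is the vector of marginals of a
probability distribution on spanning sets all of whose product moments are at most those of the
product measure (exchange argument), which forces every fractional cover to have weight at
least `1` at `u`, hence `p < u`.
-/

namespace Vale.Agent.Results.P034.C_MatroidSpanning

open Vale.Agent.Lib.P034.helper6.Mat in
theorem result {α : Type*} [Fintype α] (M : Matroid α) (hE : M.E = Set.univ)
    (g : Finset α → ℝ) (hg : ∀ S, 0 ≤ g S) (p : ℝ) (hp : 0 ≤ p)
    (hcov : ∀ H : Finset α, M.Spanning (H : Set α) → 1 ≤ ∑ S ∈ H.powerset, g S)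
    (hcost : ∑ S : Finset α, g S * p ^ S.card ≤ 1 / 2) :
    ∃ G : Finset (Finset α),
      (∀ H : Finset α, M.Spanning (H : Set α) → ∃ S ∈ G, S ⊆ H) ∧
      ∑ S ∈ G, (p / 6) ^ S.card ≤ 1 / 2 := by
  classical
  obtain ⟨G, hG, hc⟩ := matroid_abstract (isRank_rk M) (exists_inP M) g hg p hp
    (fun H hH => hcov H ((spanning_iff_rk M hE H).mpr hH)) hcost
  exact ⟨G, fun H hH => hG H ((spanning_iff_rk M hE H).mp hH), hc⟩

end Vale.Agent.Results.P034.C_MatroidSpanning
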