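import Vale.Agent.Lib.P034.Disjoint

/-!
# P034: fractional covers with pairwise disjoint supports can be rounded

If a fractional cover `g` of a family `F` of subsets of a finite set `X` has cost at most
`1/2` at `p`, and the sets on which `g` is nonzero are pairwise disjoint, then `F` admits a
cover of cost at most `1/2` at `p / 42`; that is, `F` is `(p/42)`-small.
-/

namespace Vale.Agent.Results.P034.DisjointSupport

open Finset

theorem result {X : Type*} [Fintype X] [DecidableEq X]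
    (F : Finset (Finset X)) (g : Finset X → ℝ) (p : ℝ) (hp0 : 0 ≤ p)
    (hg : ∀ S, 0 ≤ g S ∧ g S ≤ 1)
    (hcov : ∀ H ∈ F, 1 ≤ ∑ S ∈ H.powerset, g S)
    (hcost : ∑ S : Finset X, g S * p ^ S.card ≤ 1 / 2)
    (hdisj : ∀ S T, g S ≠ 0 → g T ≠ 0 → S ≠ T → Disjoint S T) :
    ∃ G : Finset (Finset X), (∀ H ∈ F, ∃ S ∈ G, S ⊆ H) ∧
      ∑ S ∈ G, (p / 42) ^ S.card ≤ 1 / 2 :=
  Vale.Agent.Lib.P034.disjoint_support_rounding F g p hp0 hg hcov hcost hdisj

end Vale.Agent.Results.P034.DisjointSupport
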